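import Vale.Agent.P088.H442.Defs3
import Vale.Agent.P088.H198.Defs3

/-!
# P088, Theorem C: local rigidity of every conformally flat metric; definitions and rows

Base `σ = φ²`, `φ > 0` arbitrary, `φ = 1` off the ball; `s = φ² t`, `t = 1` off `Ω`, `u = φ U`.
-/

open MeasureTheory Set
open scoped ContDiff Matrix

noncomputable section

namespace Vale.Agent.P088.LR.CC

open CF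

variable {n : ℕ}

/-- The base: `φ > 0`, `φ = 1` off the ball, `Δφ = q₀ φ`. -/
structure Ba (φ q₀ : V n → ℝ) : Prop where
  p : SmP φ
  one : ∀ x ∉ bal n, φ x = 1
  sq : ContDiff ℝ ∞ q₀
  eq : ∀ x, dv (fun _ => 1) (cx φ) x = (q₀ x : ℂ) * φ x

/-- The tensor `φ² t`, `t = 1` off `Ω`, `div (t ∇φ) = q φ`, orthogonality. -/
structure Bt (Ω : Set (V n)) (φ q₀ : V n → ℝ) (t : MF n) (q : V n → ℝ) : Prop where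
  ba : Ba φ q₀
  op : IsOpen Ω
  reg : interior (closure Ω) = Ω
  sub : Ω ⊆ bal n
  sm : SmM t
  sy : ∀ x, (t x).IsSymm
  off : ∀ x ∉ Ω, t x = 1
  sq : ContDiff ℝ ∞ q
  eq : ∀ x, dv t (cx φ) x = (q x : ℂ) * φ x
  st : St2 Ω (sc (fun x => φ x ^ 2)) (fun x => φ x ^ 2 • t x)

/-- `u = e^{z·x} (1 + Es θ c)`, `div (t ∇u) = q u` on the cube. -/
structure SolQ (z : Fin n → ℂ) (θ : V n) (t : MF n) (q : V n → ℝ) (c : Ix n → ℂ)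
    (u : V n → ℂ) : Prop where
  rc : RD c
  val : ∀ x, u x = Complex.exp (∑ j, z j * x j) * (1 + Es θ c x)
  eq : ∀ x ∈ cube n, dv t u x = (q x : ℂ) * u x

/-- `t - 1` and `q - q₀` are bounded by `a` in `C^m`. -/
def Sz (m : ℕ) (a : ℝ) (t : MF n) (q₀ q : V n → ℝ) : Prop :=
  (∀ i j, Cl m a (ent t i j)) ∧ Cl m a (fun x => cx q x - cx q₀ x)

/-- The identity for `u = φ U`: `∫_Ω (t - 1)(∇u, ∇v) + (q - q₀) u v = 0`. -/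
def StR (Ω : Set (V n)) (t : MF n) (q₀ q : V n → ℝ) : Prop :=
  ∀ u v : V n → ℂ, ContDiff ℝ ∞ u → ContDiff ℝ ∞ v →
    (∀ x ∈ Ω, dv (fun _ => 1) u x = (q₀ x : ℂ) * u x) →
    (∀ x ∈ Ω, dv t v x = (q x : ℂ) * v x) →
    bl Ω (fun x => t x - 1) u v + ∫ x in Ω, ((q x - q₀ x : ℝ) : ℂ) * u x * v x = 0

/-- `-X e_{jj i}`; `zs 1 i (xg jj X i) = π X (e_i + √-1 e_{jj i})`. -/
def xg (jj : Fin n → Fin n) (X : ℝ) (i : Fin n) : V n := Pi.single (jj i) (-X)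

/-- `e_i + √-1 e_{jj i}`. -/
def tg (jj : Fin n → Fin n) (i j : Fin n) : ℂ := ⟨if j = i then 1 else 0, if j = jj i then 1 else 0⟩

/-- `t` is in the gauge of level `X`. -/
def Gf (jj : Fin n → Fin n) (X : ℝ) (q₀ : V n → ℝ) (t : MF n) (q : V n → ℝ) : Prop :=
  ∀ i, ∃ (c₀ c : Ix n → ℂ) (u₀ u : V n → ℂ),
    SolQ (zs 1 i (xg jj X i)) (th0 i) (fun _ => 1) q₀ c₀ u₀ ∧
    SolQ (zs 1 i (xg jj X i)) (th0 i) t q c u ∧ ∀ x ∈ cube n, ‖u x‖ = ‖u₀ x‖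

/-- The quadratic form of `ft (t - 1) ξ`. -/
def qf (t : MF n) (ξ : V n) (v : Fin n → ℂ) : ℂ := ∑ j, ∑ l, v j * v l * ft (ent t j l) ξ

/-- `σ⁻¹ div (σ ∇f)`, `σ = φ²`. -/
def gf (φ f : V n → ℝ) (x : V n) : ℂ := ((φ x : ℂ) ^ 2)⁻¹ * dv (sc (fun y => φ y ^ 2)) (cx f) x

/-! ## Rows: basic -/

/-- (C_BA) existence of `q₀`, `q`; supports; size of `q - q₀`. -/
def RowBAC : Prop :=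
  (∀ {n : ℕ} (φ : V n → ℝ), SmP φ → (∀ x ∉ bal n, φ x = 1) → ∃ q₀, Ba φ q₀) ∧
  (∀ {n : ℕ} (φ : V n → ℝ), SmP φ → ∀ t : MF n, SmM t → ∃ q : V n → ℝ, ContDiff ℝ ∞ q ∧
    ∀ x, dv t (cx φ) x = (q x : ℂ) * φ x) ∧
  (∀ {n : ℕ} (Ω : Set (V n)) (φ q₀ : V n → ℝ) (t : MF n) (q : V n → ℝ), Bt Ω φ q₀ t q →
    (∀ x ∉ bal n, q₀ x = 0) ∧ (∀ x ∉ bal n, q x = 0) ∧ ∀ x ∉ Ω, q x = q₀ x) ∧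
  ∀ (n M : ℕ) (φ q₀ : V n → ℝ), Ba φ q₀ → ∃ C : ℝ, 1 ≤ C ∧ ∀ (Ω : Set (V n)) (t : MF n)
    (q : V n → ℝ), Bt Ω φ q₀ t q → ∀ a : ℝ, 0 ≤ a → (∀ i j, Cl (M + 1) a (ent t i j)) →
    Sz M (C * a) t q₀ q

/-- (C_ID) the identity for `u = φ U`. -/
def RowIDC : Prop := ∀ {n : ℕ} (Ω : Set (V n)) (φ q₀ : V n → ℝ) (t : MF n) (q : V n → ℝ),
  Bt Ω φ q₀ t q → StR Ω t q₀ q

/-- (C_CG) solutions of large complex frequency for `(1, q₀)` and `(t, q)`. -/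
def RowCGC : Prop := ∀ (n M : ℕ) (B : ℝ), ∃ C : ℝ, 1 ≤ C ∧ ∀ (i₀ : Fin n) (e : ℝ) (ξ : V n),
  (e = 1 ∨ e = -1) → ξ i₀ = 0 → C ≤ nr ξ → ∀ (t : MF n) (q₀ q : V n → ℝ), SmM t →
  ContDiff ℝ ∞ q₀ → ContDiff ℝ ∞ q → (∀ x ∉ core n, t x = 1) → (∀ x ∉ core n, q₀ x = 0) →
  (∀ x ∉ core n, q x = 0) → Cl (M + n + 1) B (cx q₀) → ∀ a : ℝ, 0 ≤ a →
  Sz (M + n + 1) a t q₀ q → C * nr ξ * a ≤ 1 → ∃ (c₀ c : Ix n → ℂ) (u₀ u : V n → ℂ),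
    SolQ (zs e i₀ ξ) (th0 i₀) (fun _ => 1) q₀ c₀ u₀ ∧ SolQ (zs e i₀ ξ) (th0 i₀) t q c u ∧
    nm M c₀ ≤ C / nr ξ ∧ (∀ i, nm M (fun k => lmz i₀ (zs e i₀ ξ) k i * c₀ k) ≤ C) ∧
    nm M (fun k => c k - c₀ k) ≤ C * nr ξ * a ∧
    ∀ i, nm M (fun k => lmz i₀ (zs e i₀ ξ) k i * (c k - c₀ k)) ≤ C * nr ξ ^ 2 * a

/-- (C_UQ) uniqueness. -/
def RowUQC : Prop := ∀ (n : ℕ) (B : ℝ), ∃ C : ℝ, 1 ≤ C ∧ ∀ (i₀ : Fin n) (e : ℝ) (ξ : V n),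
  (e = 1 ∨ e = -1) → ξ i₀ = 0 → C ≤ nr ξ → ∀ (t : MF n) (q₀ q : V n → ℝ), SmM t →
  ContDiff ℝ ∞ q₀ → ContDiff ℝ ∞ q → (∀ x ∉ core n, t x = 1) → (∀ x ∉ core n, q₀ x = 0) →
  (∀ x ∉ core n, q x = 0) → Cl (n + 1) B (cx q₀) → ∀ a : ℝ, 0 ≤ a → Sz (n + 1) a t q₀ q →
  C * nr ξ * a ≤ 1 → ∀ (c c' : Ix n → ℂ) (u u' : V n → ℂ),
  SolQ (zs e i₀ ξ) (th0 i₀) t q c u → SolQ (zs e i₀ ξ) (th0 i₀) t q c' u' → c = c'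

/-- (C_OF) both solutions agree off `Ω`. -/
def RowOFC : Prop := ∀ (n : ℕ) (B : ℝ), ∃ C : ℝ, 1 ≤ C ∧ ∀ (i₀ : Fin n) (e : ℝ) (ξ : V n),
  (e = 1 ∨ e = -1) → ξ i₀ = 0 → C ≤ nr ξ → ∀ (Ω : Set (V n)) (φ q₀ : V n → ℝ) (t : MF n)
  (q : V n → ℝ), Bt Ω φ q₀ t q → Cl (n + 1) B (cx q₀) → ∀ (c₀ c : Ix n → ℂ) (u₀ u : V n → ℂ),
  SolQ (zs e i₀ ξ) (th0 i₀) (fun _ => 1) q₀ c₀ u₀ → SolQ (zs e i₀ ξ) (th0 i₀) t q c u →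
  ∀ x ∈ cube n, x ∉ Ω → u x = u₀ x

/-! ## Rows: the gauge -/

/-- (C_GW) the maps `x_i + w_i = (πX)⁻¹ log (|u_i| / φ)`. -/
def RowGWC : Prop := ∀ (n M : ℕ) (φ q₀ : V n → ℝ), Ba φ q₀ → ∃ C : ℝ, 1 ≤ C ∧ ∀ X : ℝ, C ≤ X →
  ∀ jj : Fin n → Fin n, (∀ i, jj i ≠ i) → ∀ (Ω : Set (V n)) (t : MF n) (q : V n → ℝ),
  Bt Ω φ q₀ t q → ∀ a : ℝ, 0 ≤ a → Sz (M + n + 1) a t q₀ q → C * X * a ≤ 1 →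
  ∃ (c₀ c : Fin n → Ix n → ℂ) (u₀ u : Fin n → V n → ℂ) (w₁ w₂ : V n → V n),
    (∀ i, SolQ (zs 1 i (xg jj X i)) (th0 i) (fun _ => 1) q₀ (c₀ i) (u₀ i)) ∧
    (∀ i, SolQ (zs 1 i (xg jj X i)) (th0 i) t q (c i) (u i)) ∧
    (∀ i, ∀ x ∈ cube n, x ∉ Ω → u i x = u₀ i x) ∧ ContDiff ℝ ∞ w₁ ∧ ContDiff ℝ ∞ w₂ ∧
    (∀ x ∉ Ω, w₂ x = w₁ x) ∧ Cl M (C / X) w₁ ∧ Cl M (C / X) w₂ ∧
    Cl M (C * a) (fun x => w₂ x - w₁ x) ∧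
    (∀ i x, ‖u₀ i x‖ = φ x * Real.exp (Real.pi * X * (x i + w₁ x i))) ∧
    ∀ i, ∀ x ∈ cube n, ‖u i x‖ = φ x * Real.exp (Real.pi * X * (x i + w₂ x i))

/-- (C_PH) the diffeomorphism is controlled by `w₂ - w₁`. -/
def RowPHC : Prop := ∀ (n k : ℕ), ∃ C ε₀ : ℝ, 1 ≤ C ∧ 0 < ε₀ ∧ ∀ (Ω : Set (V n))
  (w₁ w₂ : V n → V n), ContDiff ℝ ∞ w₁ → ContDiff ℝ ∞ w₂ → (∀ x ∉ Ω, w₂ x = w₁ x) →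
  Cl (k + 2) ε₀ w₁ → Cl (k + 2) ε₀ w₂ → ∃ w K, Dif Ω w K ∧
    (∀ η, Cl k η (fun x => w₂ x - w₁ x) → Cl k (C * η) w) ∧
    (∀ x, (x + w x) + w₁ (x + w x) = x + w₂ x) ∧
    ∀ l ≤ k, ∀ (f : V n → ℝ), ContDiff ℝ ∞ f → ∀ η, Cl l η f → Cl l (C * η) (fun y => f (K y))

/-- (C_PS) the push-forward, linear bound. -/
def RowPSC : Prop := ∀ (n M : ℕ) (φ q₀ : V n → ℝ), Ba φ q₀ → ∀ C₀ : ℝ, ∃ C : ℝ, 1 ≤ C ∧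
  ∀ (Ω : Set (V n)) (t : MF n) (q : V n → ℝ), Bt Ω φ q₀ t q → ∀ w K, Dif Ω w K →
  (∀ (f : V n → ℝ), ContDiff ℝ ∞ f → ∀ η, Cl M η f → Cl M (C₀ * η) (fun y => f (K y))) →
  ∀ a : ℝ, 0 ≤ a → C * a ≤ 1 → (∀ i j, Cl M a (ent t i j)) → Cl (M + 1) a w →
  ∃ (t' : MF n) (q' : V n → ℝ), Bt Ω φ q₀ t' q' ∧
    (∀ x, psh (fun x => φ x ^ 2 • t x) w K x = φ x ^ 2 • t' x) ∧
    ∀ i j, Cl M (C * a) (ent t' i j)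

/-- (C_CV) transplantation of the solutions. -/
def RowCVC : Prop := ∀ {n : ℕ} (Ω : Set (V n)) (φ q₀ : V n → ℝ) (t t' : MF n)
  (q q' : V n → ℝ), Bt Ω φ q₀ t q → Bt Ω φ q₀ t' q' → ∀ w K, Dif Ω w K →
  (∀ x, psh (fun x => φ x ^ 2 • t x) w K x = φ x ^ 2 • t' x) →
  ∀ (i₀ : Fin n) (z : Fin n → ℂ) (c₀ c : Ix n → ℂ) (u₀ u : V n → ℂ),
  SolQ z (th0 i₀) (fun _ => 1) q₀ c₀ u₀ → SolQ z (th0 i₀) t q c u →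
  (∀ x ∈ cube n, x ∉ Ω → u x = u₀ x) →
  ∃ (c' : Ix n → ℂ) (u' : V n → ℂ), SolQ z (th0 i₀) t' q' c' u' ∧
    ∀ y ∈ cube n, u' y = φ y * (u (K y) / φ (K y))

/-- (C_GA) gauge at level `X` (from GW, PH, PS, CV, BA). -/
def RowGAC : Prop := ∀ (n M : ℕ), ∃ M' : ℕ, ∀ φ q₀ : V n → ℝ, Ba φ q₀ → ∀ jj : Fin n → Fin n,
  (∀ i, jj i ≠ i) → ∃ C : ℝ, 1 ≤ C ∧ ∀ X : ℝ, C ≤ X → ∀ (Ω : Set (V n)) (t : MF n)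
  (q : V n → ℝ), Bt Ω φ q₀ t q → ∀ a : ℝ, 0 ≤ a → (∀ i j, Cl M' a (ent t i j)) →
  C * X * a ≤ 1 → ∃ (w K : V n → V n) (t' : MF n) (q' : V n → ℝ), Dif Ω w K ∧
    (∀ x, psh (fun x => φ x ^ 2 • t x) w K x = φ x ^ 2 • t' x) ∧ Bt Ω φ q₀ t' q' ∧
    (∀ i j, Cl M (C * a) (ent t' i j)) ∧ Gf jj X q₀ t' q'

/-- (C_BK) the gauge is unique. -/
def RowBKC : Prop := ∀ (n : ℕ) (φ q₀ : V n → ℝ), Ba φ q₀ → ∀ jj : Fin n → Fin n,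
  (∀ i, jj i ≠ i) → ∃ C : ℝ, 1 ≤ C ∧ ∀ X : ℝ, C ≤ X → ∀ (Ω : Set (V n)) (t t' : MF n)
  (q q' : V n → ℝ), Bt Ω φ q₀ t q → Bt Ω φ q₀ t' q' → ∀ a : ℝ, 0 ≤ a → Sz (n + 3) a t q₀ q →
  Sz (n + 3) a t' q₀ q' → C * X * a ≤ 1 → Gf jj X q₀ t q → Gf jj X q₀ t' q' →
  ∀ w K, Dif Ω w K → (∀ x, psh (fun x => φ x ^ 2 • t x) w K x = φ x ^ 2 • t' x) → ∀ x, w x = 0

/-- (C_CM) composition. -/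
def RowCMC : Prop := ∀ {n : ℕ} (Ω : Set (V n)) (s : MF n) (w₁ K₁ w₂ K₂ : V n → V n),
  Dif Ω w₁ K₁ → Dif Ω w₂ K₂ → ∃ w K, Dif Ω w K ∧ ∀ x, psh s w K x = psh (psh s w₁ K₁) w₂ K₂ x

/-! ## Rows: estimates -/

/-- (C_GE) the gauge equation. -/
def RowGEC : Prop := ∀ (n : ℕ) (B : ℝ), ∃ C : ℝ, 1 ≤ C ∧ ∀ X : ℝ, C ≤ X →
  ∀ jj : Fin n → Fin n, (∀ i, jj i ≠ i) → ∀ (Ω : Set (V n)) (φ q₀ : V n → ℝ) (t : MF n)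
  (q : V n → ℝ), Bt Ω φ q₀ t q → Cl (n + 1) B (cx q₀) → ∀ a : ℝ, 0 ≤ a → Sz (n + 1) a t q₀ q →
  C * X * a ≤ 1 → Gf jj X q₀ t q → ∀ (i : Fin n) (ξ : V n), ∃ g : ℂ,
    ‖qf t ξ (tg jj i) - (∑ j, tg jj i j * ξ j) * g‖ ≤ C * (1 + nr ξ) ^ 2 * (a / X + X * a ^ 2) ∧
    ‖qf t ξ (fun j => starRingEnd ℂ (tg jj i j)) + (∑ j, starRingEnd ℂ (tg jj i j) * ξ j) * g‖
      ≤ C * (1 + nr ξ) ^ 2 * (a / X + X * a ^ 2)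

/-- (C_NF) null directions in the frame `e_{i₀}`. -/
def RowNFC : Prop := ∀ (n : ℕ) (B : ℝ), ∃ C : ℝ, 1 ≤ C ∧ ∀ (i₀ : Fin n) (ξ p : V n),
  ξ i₀ = 0 → p i₀ = 0 → nr p = 1 → ∑ j, p j * ξ j = 0 → ∀ X : ℝ, C ≤ X → 2 * nr ξ ≤ X →
  ∀ (Ω : Set (V n)) (φ q₀ : V n → ℝ) (t : MF n) (q : V n → ℝ), Bt Ω φ q₀ t q →
  Cl (n + 1) B (cx q₀) → ∀ a : ℝ, 0 ≤ a → Sz (n + 1) a t q₀ q → C * X * a ≤ 1 →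
  ‖qf t ξ (fun j => ⟨if j = i₀ then 1 else 0, p j⟩)‖ ≤ C * (1 + nr ξ) ^ 2 * (a / X + X * a ^ 2)

/-- (C_NU) null directions (from NF by the reflections of H952). -/
def RowNUC : Prop := ∀ (n : ℕ) (B : ℝ), ∃ C : ℝ, 1 ≤ C ∧ ∀ ξ e p : V n,
  nr e = 1 → nr p = 1 → ∑ j, e j * p j = 0 → ∑ j, e j * ξ j = 0 → ∑ j, p j * ξ j = 0 →
  ∀ X : ℝ, C ≤ X → 2 * nr ξ ≤ X → ∀ (Ω : Set (V n)) (φ q₀ : V n → ℝ) (t : MF n)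
  (q : V n → ℝ), Bt Ω φ q₀ t q → Cl (n + 1) B (cx q₀) → ∀ a : ℝ, 0 ≤ a → Sz (n + 1) a t q₀ q →
  C * X * a ≤ 1 → ‖qf t ξ (fun j => ⟨e j, p j⟩)‖ ≤ C * (1 + nr ξ) ^ 2 * (a / X + X * a ^ 2)

/-- (C_AL) linear algebra. -/
def RowALC : Prop := ∀ n : ℕ, 3 ≤ n → ∃ C : ℝ, 1 ≤ C ∧ ∀ H : Fin n → Fin n → ℂ,
  (∀ i j, H i j = H j i) → ∀ (ξ : V n) (E r : ℝ), 0 ≤ E → 0 < r → r ≤ 1 → 0 < nr ξ →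
  (∀ j, r * nr ξ ≤ |ξ j|) →
  (∀ e p : V n, nr e = 1 → nr p = 1 → ∑ j, e j * p j = 0 → ∑ j, e j * ξ j = 0 →
    ∑ j, p j * ξ j = 0 → ‖∑ j, ∑ l, (⟨e j, p j⟩ : ℂ) * (⟨e l, p l⟩ : ℂ) * H j l‖ ≤ E) →
  ∀ jj : Fin n → Fin n, (∀ i, jj i ≠ i) → (∀ i, ∃ g : ℂ,
    ‖(∑ j, ∑ l, tg jj i j * tg jj i l * H j l) - (∑ j, tg jj i j * ξ j) * g‖ ≤ E ∧
    ‖(∑ j, ∑ l, starRingEnd ℂ (tg jj i j) * starRingEnd ℂ (tg jj i l) * H j l)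
      + (∑ j, starRingEnd ℂ (tg jj i j) * ξ j) * g‖ ≤ E) →
  ∀ i j l, ‖H i j - (if i = j then H l l else 0)‖ ≤ C * E / r

/-- (C_LP) Fourier transforms of functions supported in the core. -/
def RowLPC : Prop := ∀ n : ℕ, ∃ C : ℝ, 1 ≤ C ∧ ∀ f : V n → ℂ, ContDiff ℝ ∞ f →
  (∀ x ∉ core n, f x = 0) → ∀ a : ℝ, (∀ x, ‖f x‖ ≤ a) → (∀ ξ, ‖ft f ξ‖ ≤ C * a) ∧
  ∀ ξ η : V n, ‖ft f ξ - ft f η‖ ≤ C * a * nr (fun j => ξ j - η j)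

/-- (C_IS) isotropy at low frequencies (from GE, NU, AL, LP; `ξ` moved by `1 / Y`). -/
def RowISC : Prop := ∀ n : ℕ, 3 ≤ n → ∀ B : ℝ, ∃ C : ℝ, 1 ≤ C ∧ ∀ Y : ℝ, C ≤ Y →
  ∀ jj : Fin n → Fin n, (∀ i, jj i ≠ i) → ∀ (Ω : Set (V n)) (φ q₀ : V n → ℝ) (t : MF n)
  (q : V n → ℝ), Bt Ω φ q₀ t q → Cl (n + 1) B (cx q₀) → ∀ a : ℝ, 0 ≤ a → Sz (n + 1) a t q₀ q →
  C * Y ^ 2 * a ≤ 1 → Gf jj (Y ^ 2) q₀ t q → ∀ ξ : V n, 4 * nr ξ ≤ Y → ∀ i j l,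
  ‖ft (ent t i j) ξ - (if i = j then ft (ent t l l) ξ else 0)‖
    ≤ C * (1 + nr ξ) ^ 3 * (a / Y + Y ^ 3 * a ^ 2)

/-- (C_SF) the conformal factor, in the frame `e_{i₀}`. -/
def RowSFC : Prop := ∀ (n : ℕ) (B : ℝ), ∃ C : ℝ, 1 ≤ C ∧ ∀ (i₀ : Fin n) (ξ p : V n),
  ξ i₀ = 0 → p i₀ = 0 → nr p = 1 → ∑ j, p j * ξ j = 0 → ∀ X : ℝ, C ≤ X → 2 * nr ξ ≤ X →
  ∀ (Ω : Set (V n)) (φ q₀ : V n → ℝ) (t : MF n) (q : V n → ℝ), Bt Ω φ q₀ t q →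
  Cl (n + 1) B (cx q₀) → Cl 1 B (cx φ) → (∀ x, (φ x)⁻¹ ≤ B) → ∀ a : ℝ, 0 ≤ a →
  Sz (n + 1) a t q₀ q → C * X * a ≤ 1 → ∀ f : V n → ℝ, ContDiff ℝ ∞ f →
  (∀ x ∉ core n, f x = 0) → Cl 2 a (cx f) → ∀ b : ℝ, 0 ≤ b →
  (∀ i j x, ‖ent t i j x - (if i = j then (f x : ℂ) else 0)‖ ≤ b) →
  ‖ft (gf φ f) ξ‖ ≤ C * (a / X + X ^ 2 * b + X ^ 3 * a ^ 2)

/-- (C_GG) the conformal factor (from SF by the reflections of H952). -/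
def RowGGC : Prop := ∀ n : ℕ, 3 ≤ n → ∀ B : ℝ, ∃ C : ℝ, 1 ≤ C ∧ ∀ (ξ : V n) (X : ℝ), C ≤ X →
  2 * nr ξ ≤ X → ∀ (Ω : Set (V n)) (φ q₀ : V n → ℝ) (t : MF n) (q : V n → ℝ),
  Bt Ω φ q₀ t q → Cl (n + 1) B (cx q₀) → Cl 1 B (cx φ) → (∀ x, (φ x)⁻¹ ≤ B) → ∀ a : ℝ, 0 ≤ a →
  Sz (n + 1) a t q₀ q → C * X * a ≤ 1 → ∀ f : V n → ℝ, ContDiff ℝ ∞ f →
  (∀ x ∉ bal n, f x = 0) → Cl 2 a (cx f) → ∀ b : ℝ, 0 ≤ b →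
  (∀ i j x, ‖ent t i j x - (if i = j then (f x : ℂ) else 0)‖ ≤ b) →
  ‖ft (gf φ f) ξ‖ ≤ C * (a / X + X ^ 2 * b + X ^ 3 * a ^ 2)

/-- (C_EN) `f` is controlled by `σ⁻¹ div (σ ∇f)`. -/
def RowENC : Prop := ∀ n : ℕ, 1 ≤ n → ∀ φ q₀ : V n → ℝ, Ba φ q₀ → ∃ C : ℝ, 1 ≤ C ∧
  ∀ f : V n → ℝ, ContDiff ℝ ∞ f → (∀ x ∉ core n, f x = 0) → ∀ b : ℝ, 0 ≤ b →
  (∀ x, ‖gf φ f x‖ ≤ b) → ∀ x, |f x| ≤ C * b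

/-- (C_SU) low frequencies and the tail. -/
def RowSUC : Prop := ∀ n m L : ℕ, ∃ C : ℝ, 1 ≤ C ∧ ∀ K d H : ℝ, 1 ≤ K → 0 ≤ d → 0 ≤ H →
  ∀ f : V n → ℂ, ContDiff ℝ ∞ f → (∀ x ∉ core n, f x = 0) →
  (∀ ξ : V n, nr ξ ≤ K → ‖ft f ξ‖ ≤ d) → Cl (m + L + n + 1) H f →
  Cl m (C * (K ^ (m + n) * d + H / K ^ L)) f

/-- (C_IN) interpolation. -/
def RowINC : Prop := ∀ n m : ℕ, ∃ M : ℕ, ∃ C : ℝ, 1 ≤ C ∧ ∀ f : V n → ℂ, ContDiff ℝ ∞ f →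
  (∀ x ∉ core n, f x = 0) → ∀ a : ℝ, 0 ≤ a → a ≤ 1 → Cl 0 a f → Cl M 1 f → Cl m (C * √a) f

/-- (C_M1) smallness at level `K ^ P` (from IS, GG, EN, SU, BA, LP). -/
def RowM1C : Prop := ∀ n m : ℕ, 3 ≤ n → n + 3 ≤ m → ∃ P Q : ℕ, 1 ≤ P ∧ ∀ L : ℕ, ∃ M' : ℕ,
  ∀ φ q₀ : V n → ℝ, Ba φ q₀ → ∃ C : ℝ, 1 ≤ C ∧ ∀ jj : Fin n → Fin n,
  (∀ i, jj i ≠ i) → ∀ K : ℝ, C ≤ K → ∀ (Ω : Set (V n)) (t : MF n) (q : V n → ℝ),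
  Bt Ω φ q₀ t q → (∀ i j, Cl M' 1 (ent t i j)) → ∀ a : ℝ, 0 ≤ a → K ^ Q * a ≤ 1 →
  (∀ i j, Cl m a (ent t i j)) → Gf jj (K ^ P) q₀ t q → ∀ i j, Cl m (C / K ^ L) (ent t i j)

/-- Theorem C, tensor form. -/
def RigC (n k : ℕ) (φ : V n → ℝ) (ε : ℝ) : Prop :=
  ∀ Ω : Set (V n), IsOpen Ω → interior (closure Ω) = Ω → Ω ⊆ bal n → ∀ s : MF n, SmM s →
  (∀ x, (s x).IsSymm) → (∀ x ∉ Ω, s x = sc (fun x => φ x ^ 2) x) →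
  (∀ i j, Cl k ε (fun x => s x i j - sc (fun x => φ x ^ 2) x i j)) →
  St2 Ω (sc (fun x => φ x ^ 2)) s →
  ∃ w K, Dif Ω w K ∧ ∀ x, psh s w K x = sc (fun x => φ x ^ 2) x

/-- (C_TOP) the theorem (from GA, BK, CM, IN, M1, BA). -/
def RowTOP : Prop := ∀ n : ℕ, 3 ≤ n → ∃ k : ℕ, ∀ φ : V n → ℝ, SmP φ → (∀ x ∉ bal n, φ x = 1) →
  ∃ ε > 0, RigC n k φ ε

end Vale.Agent.P088.LR.CC
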