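import Vale.Agent.P088.H442.C.Met
import Vale.Agent.P088.H397.GW
import Vale.Agent.P088.H129.CBa
import Vale.Agent.P088.H158.CCv
import Vale.Agent.P088.H292.CPush
import Vale.Agent.P088.H833.CPh
import Vale.Agent.P088.H738.CGa
import Vale.Agent.P088.H74.AL
import Vale.Agent.P088.H323.CLp
import Vale.Agent.P088.H323.CSu
import Vale.Agent.P088.H394.CEn
import Vale.Agent.P088.H236.CIs
import Vale.Agent.P088.H188.Nu
import Vale.Agent.P088.H900.GG
import Vale.Agent.P088.H955.CId
import Vale.Agent.P088.H271.Uq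
import Vale.Agent.P088.H745.BK
import Vale.Agent.P088.H925.CCm
import Vale.Agent.P088.H924.CM1
import Vale.Agent.P088.H947.COf
import Vale.Agent.P088.H150.CNf
import Vale.Agent.P088.H639.CCG
import Vale.Agent.P088.H109.SfC
import Vale.Agent.P088.H183.Ge

/-!
# P088, Theorem C: all closed rows plugged in
-/

open MeasureTheory Set
open scoped ContDiff Matrix

noncomputable section

namespace Vale.Agent.P088.LR.CC

/-- Theorem C, tensor form, from the open rows. -/
theorem top_of442 (hGE : RowGEC) : RowTOP := by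
  have hCG : RowCGC := Vale.Agent.P088.H639.CG.cgc
  have hSF : RowSFC := Vale.Agent.P088.LR.H109C.sf H955.idC hCG H129.bac
  have hNF : RowNFC := H150.nf hCG H955.idC H129.bac
  have hOF : RowOFC := Vale.Agent.P088.H947.ofc H129.bac H955.idC
  have hGW : RowGWC := Vale.Agent.P088.H397.GW.gw hCG hOF H129.bac
  have hGA : RowGAC := H738.ga H129.bac hGW H833.phc H292.CPs.psc H158.cvc
  have hBK : RowBKC := H745.bk H129.bac H271.uq H158.cvc hGW
  have hIS : RowISC := H236.isC hGE (H188.nu hNF) H74.al H323.rowLP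
  exact top H129.bac hGA hBK H925.cm H323.rowIN
    (Vale.Agent.P088.H924.CM1.m1 hIS (H900.gg hSF) H394.en H323.rowSU H323.rowLP H129.bac)

/-- **Theorem C**, tensor form. -/
theorem rowTOP442 : RowTOP :=
  top_of442 (H183.gec H501.rowA1 H129.bac Vale.Agent.P088.H639.CG.cgc H271.uq
    (Vale.Agent.P088.H947.ofc H129.bac H955.idC))

/-- **Theorem C** for metrics, orthogonality identity as data. -/
theorem theoremC442 : ∀ n : ℕ, 3 ≤ n → ∃ k : ℕ, ∀ R : ℝ, 0 < R →
    ∀ c : V n → ℝ, SmP c → ∃ ε > 0, LocC n (fun Ω s t => CF.St2 Ω s t) k c ε R :=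
  locC_of_top rowTOP442

end Vale.Agent.P088.LR.CC
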