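import Vale.Agent.P088.H442.C.Top
import Vale.Agent.P088.H442.CFMet
import Vale.Agent.P088.H607.YSc
import Vale.Agent.P088.H695.CFIso

/-!
# P088, Theorem C: metrics, domains of any size
-/

open MeasureTheory Set
open scoped ContDiff Matrix

noncomputable section

namespace Vale.Agent.P088.LR.CC

open CF Vale.Agent.P088.LR.H925

variable {n : ℕ}

/-- Local rigidity of the metric `c e`, domains in the box of radius `R`, data `D`. -/
def LocC (n : ℕ) (D : Set (V n) → MF n → MF n → Prop) (k : ℕ) (c : V n → ℝ) (ε R : ℝ) : Prop :=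
  ∀ Ω : Set (V n), IsOpen Ω → interior (closure Ω) = Ω → (∀ x ∈ Ω, ∀ j, |x j| ≤ R) →
  ∀ g : MF n, SmM g → (∀ x, (g x).PosDef) → (∀ x ∉ Ω, g x = sc c x) →
  (∀ i j, Cl k ε (fun x => g x i j - sc c x i j)) → D Ω (sg (sc c)) (sg g) →
  ∃ w K, Dif Ω w K ∧ ∀ x, g x = c (x + w x) • ((jm w x)ᵀ * jm w x)

/-- The dilation `c (ps t ·)`, cut off. -/
def bs442 (t : ℝ) (c : V n → ℝ) (y : V n) : ℝ := 1 + chi442 y * (sgm442 c (ps t y) - 1)

theorem bs_smooth442 {t : ℝ} {c : V n → ℝ} (hc : SmP c) : ContDiff ℝ ∞ (bs442 t c) :=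
  contDiff_const.add (chi_smooth442.mul
    (((sgm_smooth442 hc.1 hc.2).comp (contDiff_ps t)).sub contDiff_const))

theorem bs_pos442 {t : ℝ} {c : V n → ℝ} (hc : SmP c) (y : V n) : 0 < bs442 t c y := by
  have h1 := chi_nonneg442 y
  have h2 := chi_le_one442 y
  have h3 := sgm_pos442 (n := n) hc.2 (ps t y)
  have h4 : bs442 t c y = (1 - chi442 y) + chi442 y * sgm442 c (ps t y) := by
    unfold bs442
    ring
  rw [h4]
  rcases h2.lt_or_eq with h5 | h5
  · have := mul_nonneg h1 h3.le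
    linarith
  · rw [h5]
    linarith

theorem bs_one442 {t : ℝ} {c : V n → ℝ} {y : V n} (hy : y ∉ bal n) : bs442 t c y = 1 := by
  unfold bs442
  rw [chi_zero442 hy]
  ring

/-- Theorem C for metrics, orthogonality identity as data. -/
theorem locC_of_top (hT : RowTOP) : ∀ n : ℕ, 3 ≤ n → ∃ k : ℕ, ∀ R : ℝ, 0 < R →
    ∀ c : V n → ℝ, SmP c → ∃ ε > 0, LocC n (fun Ω s t => St2 Ω s t) k c ε R := by
  intro n hn
  obtain ⟨k, hk⟩ := hT n hn
  refine ⟨k, fun R hR c hc => ?_⟩
  obtain ⟨t, ht⟩ : ∃ t : ℝ, t = 8 * (n + 1) * R := ⟨_, rfl⟩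
  have ht0 : 0 < t := by rw [ht]; positivity
  obtain ⟨σ', hσ'⟩ : ∃ σ' : V n → ℝ, σ' = bs442 t c := ⟨_, rfl⟩
  have hσ's : ContDiff ℝ ∞ σ' := hσ' ▸ bs_smooth442 hc
  have hσ'0 : ∀ y, 0 < σ' y := hσ' ▸ bs_pos442 hc
  obtain ⟨φ, hφ⟩ : ∃ φ : V n → ℝ, φ = fun y => √(σ' y) := ⟨_, rfl⟩
  have hφP : SmP φ := by
    rw [hφ]
    exact ⟨hσ's.sqrt fun x => ne_of_gt (hσ'0 x), fun x => Real.sqrt_pos.2 (hσ'0 x)⟩
  have hφ1 : ∀ y ∉ bal n, φ y = 1 := by
    intro y hy
    rw [hφ, hσ']
    simp only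
    rw [bs_one442 hy, Real.sqrt_one]
  have hφ2 : (fun x => φ x ^ 2) = σ' := by
    funext x
    rw [hφ]
    exact Real.sq_sqrt (hσ'0 x).le
  obtain ⟨ε₁, hε₁, hrig⟩ := hk φ hφP hφ1
  obtain ⟨c', hc'⟩ : ∃ c' : V n → ℝ, c' = fun y => c (ps t y) := ⟨_, rfl⟩
  have hc's : ContDiff ℝ ∞ c' := hc' ▸ hc.1.comp (contDiff_ps t)
  have hc'0 : ∀ y, 0 < c' y := fun y => by rw [hc']; exact hc.2 _
  obtain ⟨δ, hδ, hnorm⟩ := H607.norm_base607 c' hc's hc'0 k hε₁
  have hM : 0 < max 1 t ^ k := by positivity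
  refine ⟨δ / max 1 t ^ k, by positivity, ?_⟩
  intro Ω hΩ hreg hΩR g hg hgp hoff hcl hst
  set Ω' : Set (V n) := ps t ⁻¹' Ω with hΩ'
  have hO' : IsOpen Ω' := hΩ.preimage (contDiff_ps t).continuous
  have hreg' : interior (closure Ω') = Ω' := by
    have e1 := (hm (n := n) t ht0.ne').preimage_closure Ω
    have e2 := (hm (n := n) t ht0.ne').preimage_interior (closure Ω)
    have e3 : (hm (n := n) t ht0.ne') ⁻¹' Ω = Ω' := rfl
    rw [e1, e3, hreg, e3] at e2
    exact e2.symm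
  have hsm : ∀ y ∈ Ω', ∑ j, (y j - 1 / 2) ^ 2 ≤ 1 / 64 := by
    intro y hy
    have h1 : ∀ j, (y j - 1 / 2) ^ 2 ≤ (1 / (8 * (n + 1))) ^ 2 := by
      intro j
      have h2 := hΩR _ hy j
      simp only [ps, Pi.smul_apply, Pi.sub_apply, smul_eq_mul] at h2
      rw [abs_mul, abs_of_pos ht0, ht] at h2
      have h3 : |y j - 1 / 2| ≤ 1 / (8 * (n + 1)) := by
        rw [le_div_iff₀ (by positivity)]
        have h4 : |y j - 1 / 2| * (8 * (n + 1)) * R ≤ 1 * R := by
          calc |y j - 1 / 2| * (8 * (n + 1)) * R = 8 * (n + 1) * R * |y j - 1 / 2| := by ring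
            _ ≤ R := h2
            _ = 1 * R := by ring
        exact le_of_mul_le_mul_right h4 hR
      rw [← sq_abs]
      exact pow_le_pow_left₀ (abs_nonneg _) h3 2
    calc ∑ j, (y j - 1 / 2) ^ 2 ≤ ∑ _j : Fin n, (1 / (8 * ((n : ℝ) + 1))) ^ 2 :=
          Finset.sum_le_sum fun j _ => h1 j
      _ = n * (1 / (8 * ((n : ℝ) + 1))) ^ 2 := by simp
      _ ≤ 1 / 64 := by
          have hn : (0 : ℝ) ≤ n := Nat.cast_nonneg n
          rw [div_pow, one_pow, mul_one_div, div_le_div_iff₀ (by positivity) (by norm_num)]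
          nlinarith
  have hb' : Ω' ⊆ bal n := fun y hy => by
    have := hsm y hy
    show ∑ j, (y j - 1 / 2) ^ 2 ≤ 1 / 16
    linarith
  have hχ1 : ∀ y ∈ Ω', chi442 y = 1 := fun y hy => chi_one442 (hsm y hy)
  obtain ⟨g', hg'⟩ : ∃ g' : MF n, g' = fun y => g (ps t y) := ⟨_, rfl⟩
  have hg's : SmM g' := fun i j => by rw [hg']; exact (hg i j).comp (contDiff_ps t)
  have hg'p : ∀ y, (g' y).PosDef := fun y => by rw [hg']; exact hgp _
  have hg'off : ∀ y ∉ Ω', g' y = sc c' y := fun y hy => by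
    rw [hg', hc']
    exact hoff _ hy
  have hg'cl : ∀ i j, Cl k δ (fun y => g' y i j - sc c' y i j) := by
    intro i j
    have h1 := cl_ps ((hg i j).sub (smM_sc442 hc.1 i j)) ht0 (hcl i j)
    rw [mul_div_cancel₀ _ hM.ne'] at h1
    rw [hg', hc']
    exact h1
  have hsgcl := hnorm g' hg's hg'p (fun y hy => hg'off y fun h => hy (bal_subset_core442 (hb' h)))
    hg'cl
  -- the tensors
  obtain ⟨s', hs'⟩ : ∃ s' : MF n, s' = fun y => sg g' y + (σ' y - sgm442 c' y) • 1 := ⟨_, rfl⟩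
  have hsgs : SmM (sg g') := H442.smM_sg442 hg's hg'p
  have hsgy : ∀ x, (sg g' x).IsSymm := H442.symm_sg442 hg'p
  have hsmc : ContDiff ℝ ∞ (sgm442 c') := sgm_smooth442 hc's hc'0
  have hσ'on : ∀ y ∈ Ω', σ' y = sgm442 c' y := by
    intro y hy
    rw [hσ']
    unfold bs442
    rw [hχ1 y hy, hc']
    unfold sgm442
    ring
  have hs'e : ∀ y i j, s' y i j = sg g' y i j
      + (σ' y - sgm442 c' y) * (1 : Matrix (Fin n) (Fin n) ℝ) i j := by
    intro y i j
    rw [hs']
    rfl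
  have hs's : SmM s' := by
    intro i j
    have h1 : (fun y => s' y i j) = fun y => sg g' y i j
      + (σ' y - sgm442 c' y) * (1 : Matrix (Fin n) (Fin n) ℝ) i j := funext fun y => hs'e y i j
    rw [h1]
    exact (hsgs i j).add ((hσ's.sub hsmc).mul contDiff_const)
  have hs'y : ∀ y, (s' y).IsSymm := by
    intro y
    rw [hs']
    exact (hsgy y).add (Matrix.isSymm_one.smul _)
  have hs'off : ∀ y ∉ Ω', s' y = sc σ' y := by
    intro y hy
    have h1 : sg g' y = sc (sgm442 c') y := by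
      rw [← sg_sc442 hc'0]
      unfold sg
      rw [hg'off y hy]
    rw [hs']
    simp only
    rw [h1]
    unfold sc
    rw [← add_smul]
    congr 1
    ring
  have hs'on : ∀ y ∈ Ω', s' y = sg g' y := by
    intro y hy
    rw [hs']
    simp only
    rw [hσ'on y hy, sub_self, zero_smul, add_zero]
  have hs'cl : ∀ i j, Cl k ε₁ (fun y => s' y i j - sc σ' y i j) := by
    intro i j
    have h1 : (fun y => s' y i j - sc σ' y i j)
        = fun y => sg g' y i j - sc (sgm442 c') y i j := by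
      funext y
      rw [hs'e]
      simp only [sc, Matrix.smul_apply, smul_eq_mul]
      ring
    rw [h1]
    exact hsgcl i j
  rw [sg_sc442 hc.2] at hst
  have hst' : St2 Ω' (sc σ') s' := by
    intro U W hU hW hdU hdW
    have g1 : ∀ x ∈ Ω, dv (sc (sgm442 c)) (fun x => U (ph t x)) x = 0 := by
      intro x hx
      have hy : ph t x ∈ Ω' := by
        show ps t (ph t x) ∈ Ω
        rw [ps_ph ht0.ne']; exact hx
      rw [dv_ph442 ht0.ne' (smM_sc442 (sgm_smooth442 hc.1 hc.2)) hU x]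
      have h1 : rs t (sc (sgm442 c)) =ᶠ[nhds (ph t x)] sc σ' := by
        filter_upwards [hO'.mem_nhds hy] with y hy
        show sgm442 c (ps t y) • (1 : Matrix (Fin n) (Fin n) ℝ) = σ' y • 1
        rw [hσ'on y hy, hc']
        rfl
      rw [dv_germ442 h1, hdU _ hy, mul_zero]
    have g2 : ∀ x ∈ Ω, dv (sg g) (fun x => W (ph t x)) x = 0 := by
      intro x hx
      have hy : ph t x ∈ Ω' := by
        show ps t (ph t x) ∈ Ω
        rw [ps_ph ht0.ne']; exact hx
      rw [dv_ph442 ht0.ne' (H442.smM_sg442 hg hgp) hW x]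
      have h1 : rs t (sg g) =ᶠ[nhds (ph t x)] s' := by
        filter_upwards [hO'.mem_nhds hy] with y hy
        rw [hs'on y hy, hg']
        rfl
      rw [dv_germ442 h1, hdW _ hy, mul_zero]
    have g3 := hst (fun x => U (ph t x)) (fun x => W (ph t x)) (hU.comp (contDiff_ph t))
      (hW.comp (contDiff_ph t)) g1 g2
    have g4 := bl_ps t Ω hΩ.measurableSet (fun x => sg g x - sc (sgm442 c) x)
      (fun x => U (ph t x)) (fun x => W (ph t x))
      ((hU.comp (contDiff_ph t)).differentiable (by simp))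
      ((hW.comp (contDiff_ph t)).differentiable (by simp))
    rw [g3, mul_zero] at g4
    have g5 : (fun y => (fun x => U (ph t x)) (ps t y)) = U := by
      funext y
      simp only [ph_ps ht0.ne']
    have g6 : (fun y => (fun x => W (ph t x)) (ps t y)) = W := by
      funext y
      simp only [ph_ps ht0.ne']
    rw [g5, g6] at g4
    rw [← g4]
    unfold bl
    refine setIntegral_congr_fun hO'.measurableSet fun y hy => ?_
    have e1 : sc σ' y = sc (sgm442 c) (ps t y) := by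
      show σ' y • (1 : Matrix (Fin n) (Fin n) ℝ) = sgm442 c (ps t y) • 1
      rw [hσ'on y hy, hc']
      rfl
    have e2 : s' y = sg g (ps t y) := by
      rw [hs'on y hy, hg']
      rfl
    simp only [e1, e2, rs]
  obtain ⟨w, K, hD, hpsh⟩ := hrig Ω' hO' hreg' hb' s' hs's hs'y
    (by rw [hφ2]; exact hs'off) (by rw [hφ2]; exact hs'cl) (by rw [hφ2]; exact hst')
  rw [hφ2] at hpsh
  have hkey : ∀ y, psh (sg g') w K y = sg (sc c') y := by
    intro y
    rw [sg_sc442 hc'0]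
    by_cases hy : y ∈ Ω'
    · have hKy : K y ∈ Ω' := H158.K_mem hD hy
      have h1 := hpsh y
      unfold psh at h1 ⊢
      rw [hs'on _ hKy] at h1
      rw [h1]
      unfold sc
      rw [hσ'on y hy]
    · have hKy : K y = y := H158.K_off hD hy
      unfold psh
      rw [hKy, H158.jm_off hD hreg' hy]
      simp only [Matrix.det_one, inv_one, one_smul, Matrix.transpose_one, Matrix.one_mul,
        Matrix.mul_one]
      rw [← sg_sc442 hc'0]
      unfold sg
      rw [hg'off y hy]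
  have hiso := H695.is2 hn Ω' c' g' hc'0 hg'p w K hD hkey
  have ew : ∀ x, x + t • w (ph t x) = ps t (ph t x + w (ph t x)) := by
    intro x
    conv_lhs => rw [← ps_ph ht0.ne' x]
    rw [ph_ps ht0.ne']
    simp only [ps, smul_sub, smul_add]
    abel
  have ejm : ∀ x, jm (fun x => t • w (ph t x)) x = jm w (ph t x) := by
    intro x
    funext i j
    simp only [jm]
    have hd : Differentiable ℝ (fun y => t • w y) :=
      (hD.sw.differentiable (by simp)).const_smul t
    have e := pd_ph j hd t x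
    have e' : pd j (fun y => t • w y) (ph t x) = t • pd j w (ph t x) := by
      unfold pd
      rw [fderiv_fun_const_smul (hD.sw.differentiable (by simp) _)]
      rfl
    rw [e, e', smul_smul, inv_mul_cancel₀ ht0.ne', one_smul]
  refine ⟨fun x => t • w (ph t x), fun x => ps t (K (ph t x)), ⟨?_, ?_, ?_, ?_, ?_, ?_⟩, ?_⟩
  · exact (hD.sw.comp (contDiff_ph t)).const_smul t
  · exact (contDiff_ps t).comp (hD.sK.comp (contDiff_ph t))
  · intro x
    show ps t (K (ph t (x + t • w (ph t x)))) = x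
    rw [ew, ph_ps ht0.ne', hD.l, ps_ph ht0.ne']
  · intro y
    show ps t (K (ph t y)) + t • w (ph t (ps t (K (ph t y)))) = y
    rw [ew, ph_ps ht0.ne', hD.r, ps_ph ht0.ne']
  · intro x hx
    show t • w (ph t x) = 0
    rw [hD.z, smul_zero]
    intro h
    apply hx
    have : ps t (ph t x) ∈ Ω := h
    rwa [ps_ph ht0.ne'] at this
  · intro x
    rw [ejm]
    exact hD.dp _
  · intro x
    have h1 := hiso (ph t x)
    rw [hg', hc'] at h1
    simp only at h1
    rw [ps_ph ht0.ne', ← ew] at h1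
    rw [ejm]
    exact h1

/-- Theorem C for any data which imply the orthogonality identity. -/
theorem locC_mono442 {D : Set (V n) → MF n → MF n → Prop} {k : ℕ} {c : V n → ℝ} (hc : SmP c)
    {ε R : ℝ}
    (hP : ∀ (Ω : Set (V n)), IsOpen Ω → Bornology.IsBounded Ω → ∀ s₁ s₂ : MF n, SmM s₁ → SmM s₂ →
      (∀ x, (s₁ x).PosDef) → (∀ x, (s₂ x).PosDef) → D Ω s₁ s₂ → St2 Ω s₁ s₂)
    (hpd : ∀ g : MF n, (∀ x, (g x).PosDef) → ∀ x, (sg g x).PosDef)
    (h : LocC n (fun Ω s t => St2 Ω s t) k c ε R) : LocC n D k c ε R := by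
  intro Ω hΩ hreg hΩb g hg hgp hoff hcl hd
  have hbd : Bornology.IsBounded Ω := by
    refine (Metric.isBounded_Icc (fun _ : Fin n => -R) (fun _ => R)).subset fun x hx => ?_
    have h1 := fun j => abs_le.1 (hΩb x hx j)
    exact ⟨fun j => (h1 j).1, fun j => (h1 j).2⟩
  have hs1 : SmM (sg (sc c)) := H442.smM_sg442 (smM_sc442 hc.1) (posDef_sc442 hc.2)
  exact h Ω hΩ hreg hΩb g hg hgp hoff hcl
    (hP Ω hΩ hbd _ _ hs1 (H442.smM_sg442 hg hgp) (hpd _ (posDef_sc442 hc.2)) (hpd _ hgp) hd)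

end Vale.Agent.P088.LR.CC
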