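import Vale.Agent.P088.H442.C.Defs
import Vale.Agent.P088.H442.CFScale

/-!
# P088, Theorem C: the two level gauge (assembly)
-/

open MeasureTheory Set
open scoped ContDiff Matrix

noncomputable section

namespace Vale.Agent.P088.LR.CC

open CF

variable {n : ℕ}

theorem cl_le442 {F : Type*} [NormedAddCommGroup F] [NormedSpace ℝ F] {k l : ℕ} {a b : ℝ}
    {f : V n → F} (h : Cl k a f) (hl : l ≤ k) (hab : a ≤ b) : Cl l b f :=
  fun j hj x => (h j (hj.trans hl) x).trans hab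

theorem exists_jj442 (hn : 2 ≤ n) : ∃ jj : Fin n → Fin n, ∀ i, jj i ≠ i := by
  refine ⟨fun i => if i = ⟨0, by omega⟩ then ⟨1, by omega⟩ else ⟨0, by omega⟩, fun i => ?_⟩
  by_cases h : i = ⟨0, by omega⟩
  · simp only [h, if_true]
    intro h1
    have := congrArg Fin.val h1
    simp at this
  · simp only [h, if_false]
    exact fun h1 => h h1.symm

theorem psh_zero442 {Ω : Set (V n)} {s : MF n} {w K : V n → V n} (hD : Dif Ω w K)
    (hw : ∀ x, w x = 0) (x : V n) : psh s w K x = s x := by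
  have hK : ∀ y, K y = y := fun y => by
    have := hD.r y
    rw [hw, add_zero] at this
    exact this
  have hw0 : w = fun _ => 0 := funext hw
  have hj : ∀ y, jm w y = 1 := fun y => by
    ext i j
    unfold jm pd
    rw [hw0]
    simp
  unfold psh
  rw [hj, hK, Matrix.det_one, inv_one, one_smul, one_mul, Matrix.transpose_one, mul_one]

/-- Product with the fixed function `φ⁻²`. -/
theorem cl_inv_sq442 {φ : V n → ℝ} (hφ : SmP φ) (h1 : ∀ x ∉ bal n, φ x = 1) (k : ℕ) :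
    ∃ B : ℝ, 0 < B ∧ Cl k B (fun x => ((φ x) ^ 2)⁻¹) := by
  have hsm : ContDiff ℝ ∞ (fun x => ((φ x) ^ 2)⁻¹) :=
    (hφ.1.pow 2).inv fun x => ne_of_gt (pow_pos (hφ.2 x) 2)
  have hcpt : IsCompact (bal n) := by
    have hcl : IsClosed (bal n) := by
      refine isClosed_le (f := fun x : V n => ∑ j, (x j - 1 / 2) ^ 2) (by fun_prop)
        continuous_const
    refine Metric.isCompact_of_isClosed_isBounded hcl ?_
    refine (Metric.isBounded_Icc (fun _ : Fin n => (1 / 4 : ℝ)) (fun _ => 3 / 4)).subset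
      fun x hx => ?_
    have h2 := bal_subset_core442 hx
    exact ⟨fun j => (h2 j).1, fun j => (h2 j).2⟩
  have hex : ∀ l : ℕ, ∃ B : ℝ, ∀ x, ‖iteratedFDeriv ℝ l (fun x => ((φ x) ^ 2)⁻¹ - 1) x‖ ≤ B := by
    intro l
    have hg : ContDiff ℝ ∞ (fun x => ((φ x) ^ 2)⁻¹ - 1) := hsm.sub contDiff_const
    have hc : HasCompactSupport (fun x => ((φ x) ^ 2)⁻¹ - 1) := by
      refine HasCompactSupport.intro hcpt fun x hx => ?_
      rw [h1 x hx]
      norm_num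
    have hct : Continuous (iteratedFDeriv ℝ l (fun x => ((φ x) ^ 2)⁻¹ - 1)) :=
      hg.continuous_iteratedFDeriv (by exact_mod_cast le_top)
    obtain ⟨B, hB⟩ := (hct.norm).bounded_above_of_compact_support
      ((hc.iteratedFDeriv l).norm)
    exact ⟨B, fun x => by simpa using hB x⟩
  choose B hB using hex
  refine ⟨1 + ∑ l ∈ Finset.range (k + 1), |B l|, by positivity, fun l hl x => ?_⟩
  have hle : |B l| ≤ ∑ l ∈ Finset.range (k + 1), |B l| :=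
    Finset.single_le_sum (f := fun l => |B l|) (fun _ _ => abs_nonneg _)
      (Finset.mem_range.2 (by omega))
  have hdec : (fun x => ((φ x) ^ 2)⁻¹) = (fun x => (((φ x) ^ 2)⁻¹ - 1)) + fun _ => (1 : ℝ) := by
    funext x
    simp
  have h2 : ContDiff ℝ l (fun x => ((φ x) ^ 2)⁻¹ - 1) :=
    (hsm.sub contDiff_const).of_le (by exact_mod_cast le_top)
  rw [hdec, iteratedFDeriv_add_apply h2.contDiffAt contDiff_const.contDiffAt]
  have h3 : ‖iteratedFDeriv ℝ l (fun _ : V n => (1 : ℝ)) x‖ ≤ 1 := by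
    rcases Nat.eq_zero_or_pos l with h | h
    · subst h
      simp
    · rw [iteratedFDeriv_const_of_ne (by omega)]
      simp
  calc _ ≤ ‖iteratedFDeriv ℝ l (fun x => ((φ x) ^ 2)⁻¹ - 1) x‖
        + ‖iteratedFDeriv ℝ l (fun _ : V n => (1 : ℝ)) x‖ := norm_add_le _ _
    _ ≤ B l + 1 := add_le_add (hB l x) h3
    _ ≤ _ := by linarith [le_abs_self (B l)]

theorem ent_smooth442 {t : MF n} (ht : SmM t) (i j : Fin n) : ContDiff ℝ ∞ (ent t i j) :=
  Complex.ofRealCLM.contDiff.comp ((ht i j).sub contDiff_const)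

theorem ent_zero442 {Ω : Set (V n)} {φ q₀ : V n → ℝ} {t : MF n} {q : V n → ℝ}
    (h : Bt Ω φ q₀ t q) (i j : Fin n) : ∀ x ∉ core n, ent t i j x = 0 := by
  intro x hx
  unfold ent
  rw [h.off x fun h1 => hx (bal_subset_core442 (h.sub h1))]
  simp

/-- The step of the two level gauge: size `K^{-N}` improves to `C K^{-2N}`. -/
theorem step442 (hn : 3 ≤ n) (hBA : RowBAC) (hGA : RowGAC) (hBK : RowBKC) (hCM : RowCMC)
    (hIN : RowINC) (hM1 : RowM1C) : ∃ N Ms : ℕ, 1 ≤ N ∧ ∀ φ q₀ : V n → ℝ, Ba φ q₀ →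
    ∀ jj : Fin n → Fin n, (∀ i, jj i ≠ i) → ∃ X₁ : ℝ, 1 ≤ X₁ ∧ ∀ X₀, X₁ ≤ X₀ →
    ∃ A C : ℝ, 0 < A ∧ 1 ≤ C ∧ ∀ K : ℝ, C ≤ K → ∀ (Ω : Set (V n)) (t : MF n) (q : V n → ℝ),
    Bt Ω φ q₀ t q → Gf jj X₀ q₀ t q → (∀ i j, Cl (n + 4) A (ent t i j)) →
    (∀ i j, Cl Ms 1 (ent t i j)) → (∀ i j, Cl (n + 4) (1 / K ^ N) (ent t i j)) →
    ∀ i j, Cl (n + 4) (C / K ^ (2 * N)) (ent t i j) := by
  obtain ⟨M₁', hGA1⟩ := hGA n (n + 4)
  obtain ⟨m, hm⟩ : ∃ m, m = max M₁' (n + 3) := ⟨_, rfl⟩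
  have hm1 : M₁' ≤ m := hm ▸ le_max_left _ _
  have hm2 : n + 3 ≤ m := hm ▸ le_max_right _ _
  obtain ⟨P, Q, hP, hM⟩ := hM1 n m hn hm2
  obtain ⟨N', hN'⟩ : ∃ N', N' = 2 * (P + Q) := ⟨_, rfl⟩
  obtain ⟨ML, hML⟩ := hM (2 * (2 * N'))
  obtain ⟨Mh, hMh⟩ : ∃ Mh, Mh = max ML m := ⟨_, rfl⟩
  have hMh1 : ML ≤ Mh := hMh ▸ le_max_left _ _
  have hMh2 : m ≤ Mh := hMh ▸ le_max_right _ _
  obtain ⟨Mh', hGAh⟩ := hGA n Mh
  obtain ⟨Ms, Ci, hCi, hint⟩ := hIN n Mh'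
  refine ⟨2 * N', Ms, by omega, ?_⟩
  intro φ q₀ hB jj hjj
  obtain ⟨C1, hC1, g1⟩ := hGA1 φ q₀ hB jj hjj
  obtain ⟨C2, hC2, g2⟩ := hGAh φ q₀ hB jj hjj
  obtain ⟨C4, hC4, m1⟩ := hML φ q₀ hB
  obtain ⟨C5, hC5, bk⟩ := hBK n φ q₀ hB jj hjj
  obtain ⟨C6, hC6, sz⟩ := hBA.2.2.2 n (n + 3) φ q₀ hB
  refine ⟨max C1 C5, hC1.trans (le_max_left _ _), fun X₀ hX₀ => ?_⟩
  have hX1 : C1 ≤ X₀ := (le_max_left _ _).trans hX₀
  have hX5 : C5 ≤ X₀ := (le_max_right _ _).trans hX₀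
  have hX0 : 1 ≤ X₀ := hC1.trans hX1
  have hC1p : 0 < C1 := by linarith
  have hC2p : 0 < C2 := by linarith
  have hC4p : 0 < C4 := by linarith
  have hC5p : 0 < C5 := by linarith
  have hC6p : 0 < C6 := by linarith
  have hCip : 0 < Ci := by linarith
  have hX0p : 0 < X₀ := by linarith
  obtain ⟨C, hC⟩ : ∃ C, C = C2 * Ci + C2 + C4 + C1 * X₀ * C4 + C1 * C4 * (C5 * X₀ * C6) :=
    ⟨_, rfl⟩
  have p1 : 0 < C2 * Ci := by positivity
  have p2 : 0 < C1 * X₀ * C4 := by positivity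
  have p3 : 0 < C1 * C4 * (C5 * X₀ * C6) := by positivity
  refine ⟨1 / (C5 * X₀ * C6), C, by positivity, by linarith, ?_⟩
  intro K hK Ω t q hBt hGf hA hs hsm
  have hK1 : 1 ≤ K := by linarith
  have hKp : 0 < K := by linarith
  have hK0 : ∀ l : ℕ, 0 < K ^ l := fun l => pow_pos hKp l
  have hKl : ∀ l : ℕ, 1 ≤ l → K ≤ K ^ l := fun l hl => le_self_pow₀ hK1 (by omega)
  have hKm : ∀ l l' : ℕ, l ≤ l' → K ^ l ≤ K ^ l' := fun l l' h => pow_le_pow_right₀ hK1 h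
  have hsq : √(1 / K ^ (2 * N')) = 1 / K ^ N' := by
    rw [show (1 : ℝ) / K ^ (2 * N') = (1 / K ^ N') ^ 2 by
      rw [div_pow, one_pow, ← pow_mul, mul_comm 2 N'], Real.sqrt_sq (by have := hK0 N'; positivity)]
  -- level `K ^ P`
  have hcl : ∀ i j, Cl Mh' (Ci / K ^ N') (ent t i j) := by
    intro i j
    have h1 := hint (ent t i j) (ent_smooth442 hBt.sm i j) (ent_zero442 hBt i j)
      (1 / K ^ (2 * N')) (by have := hK0 (2 * N'); positivity) (by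
        rw [div_le_one (hK0 _)]
        exact one_le_pow₀ hK1) (cl_le442 (hsm i j) (Nat.zero_le _) le_rfl) (hs i j)
    rw [hsq] at h1
    exact cl_le442 h1 le_rfl (by rw [mul_one_div])
  have hb0 : 0 ≤ Ci / K ^ N' := by have := hK0 N'; positivity
  have hC2K : C2 ≤ K ^ P := by
    have := hKl P hP
    linarith
  have hsmall1 : C2 * K ^ P * (Ci / K ^ N') ≤ 1 := by
    rw [mul_div_assoc', div_le_one (hK0 _)]
    calc C2 * K ^ P * Ci = K ^ P * (C2 * Ci) := by ring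
      _ ≤ K ^ P * K := mul_le_mul_of_nonneg_left (by linarith) (hK0 P).le
      _ = K ^ (P + 1) := by rw [pow_succ]
      _ ≤ K ^ N' := hKm _ _ (by omega)
  have hsmall2 : K ^ Q * (C2 * (Ci / K ^ N')) ≤ 1 := by
    rw [mul_div_assoc', mul_div_assoc', div_le_one (hK0 _)]
    calc K ^ Q * (C2 * Ci) ≤ K ^ Q * K := mul_le_mul_of_nonneg_left (by linarith) (hK0 Q).le
      _ = K ^ (Q + 1) := by rw [pow_succ]
      _ ≤ K ^ N' := hKm _ _ (by omega)
  have hsmall3 : C2 * (Ci / K ^ N') ≤ 1 := by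
    rw [mul_div_assoc', div_le_one (hK0 _)]
    have := hKl N' (by omega)
    linarith
  obtain ⟨w', K', t₁, q₁, hD', hpsh', hBt₁, hCl₁, hGf₁⟩ :=
    g2 (K ^ P) hC2K Ω t q hBt _ hb0 hcl hsmall1
  have hCl₂ := m1 jj hjj K (by linarith) Ω t₁ q₁ hBt₁
    (fun i j => cl_le442 (hCl₁ i j) hMh1 hsmall3) (C2 * (Ci / K ^ N')) (by positivity) hsmall2
    (fun i j => cl_le442 (hCl₁ i j) hMh2 le_rfl) hGf₁
  -- back to level `X₀`
  have hKN : K ≤ K ^ (2 * (2 * N')) := hKl _ (by omega)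
  have hsmall4 : C1 * X₀ * (C4 / K ^ (2 * (2 * N'))) ≤ 1 := by
    rw [mul_div_assoc', div_le_one (hK0 _)]
    linarith
  obtain ⟨w'', K'', t₂, q₂, hD'', hpsh'', hBt₂, hCl₃, hGf₂⟩ :=
    g1 X₀ hX1 Ω t₁ q₁ hBt₁ (C4 / K ^ (2 * (2 * N'))) (by have := hK0 (2 * (2 * N')); positivity)
      (fun i j => cl_le442 (hCl₂ i j) hm1 le_rfl) hsmall4
  obtain ⟨w, Kk, hD, hps⟩ := hCM Ω (fun x => φ x ^ 2 • t x) w' K' w'' K'' hD' hD''
  have hps2 : ∀ x, psh (fun x => φ x ^ 2 • t x) w Kk x = φ x ^ 2 • t₂ x := by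
    intro x
    rw [hps x, show psh (fun x => φ x ^ 2 • t x) w' K' = fun x => φ x ^ 2 • t₁ x from
      funext hpsh', hpsh'' x]
  have hA2 : C1 * (C4 / K ^ (2 * (2 * N'))) ≤ 1 / (C5 * X₀ * C6) := by
    rw [mul_div_assoc', div_le_div_iff₀ (hK0 _) (by positivity)]
    linarith
  have hw0 := bk X₀ hX5 Ω t t₂ q q₂ hBt hBt₂ (C6 * (1 / (C5 * X₀ * C6))) (by positivity)
    (sz Ω t q hBt _ (by positivity) fun i j => cl_le442 (hA i j) le_rfl le_rfl)
    (sz Ω t₂ q₂ hBt₂ _ (by positivity) fun i j => cl_le442 (hCl₃ i j) le_rfl hA2)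
    (le_of_eq (by field_simp)) hGf hGf₂ w Kk hD hps2
  have hteq : t = t₂ := by
    funext x
    have h1 := hps2 x
    rw [psh_zero442 hD hw0] at h1
    have h2 : φ x ^ 2 ≠ 0 := ne_of_gt (pow_pos (hB.p.2 x) 2)
    exact smul_right_injective _ h2 h1
  intro i j
  rw [hteq]
  refine cl_le442 (hCl₃ i j) le_rfl ?_
  rw [mul_div_assoc']
  refine div_le_div_of_nonneg_right ?_ (hK0 _).le
  have h3 : C1 * C4 ≤ C1 * X₀ * C4 := by
    have : C1 * C4 * 1 ≤ C1 * C4 * X₀ := mul_le_mul_of_nonneg_left hX0 (by positivity)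
    linarith
  linarith

/-- Theorem C in the tensor form, from the rows. -/
theorem top (hBA : RowBAC) (hGA : RowGAC) (hBK : RowBKC) (hCM : RowCMC) (hIN : RowINC)
    (hM1 : RowM1C) : RowTOP := by
  intro n hn
  obtain ⟨N, Ms, hN, hstep⟩ := step442 hn hBA hGA hBK hCM hIN hM1
  obtain ⟨k, hGA0⟩ := hGA n (max Ms (n + 4))
  refine ⟨k, ?_⟩
  intro φ hφ hφ1
  obtain ⟨q₀, hB⟩ := hBA.1 φ hφ hφ1
  obtain ⟨jj, hjj⟩ := exists_jj442 (n := n) (by omega)
  obtain ⟨X₁, hX₁, hs1⟩ := hstep φ q₀ hB jj hjj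
  obtain ⟨C3, hC3, g3⟩ := hGA0 φ q₀ hB jj hjj
  obtain ⟨X₀, hX₀⟩ : ∃ X₀, X₀ = max X₁ C3 := ⟨_, rfl⟩
  have hX01 : X₁ ≤ X₀ := hX₀ ▸ le_max_left _ _
  have hX03 : C3 ≤ X₀ := hX₀ ▸ le_max_right _ _
  obtain ⟨A, C, hA, hC, hst⟩ := hs1 X₀ hX01
  obtain ⟨K₀, hK₀⟩ : ∃ K₀, K₀ = C * 2 ^ N := ⟨_, rfl⟩
  have h2N : (1 : ℝ) ≤ 2 ^ N := one_le_pow₀ (by norm_num)
  have hCK : C ≤ K₀ := by
    rw [hK₀]
    exact le_mul_of_one_le_right (by linarith) h2N
  have hK1 : 1 ≤ K₀ := hC.trans hCK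
  have hX0p : 1 ≤ X₀ := hX₁.trans hX01
  have hC3p : 0 < C3 := by linarith
  obtain ⟨δ, hδ⟩ : ∃ δ, δ = min A (1 / K₀ ^ N) / (C3 * X₀) := ⟨_, rfl⟩
  have hmin : 0 < min A (1 / K₀ ^ N) := lt_min hA (by positivity)
  have hmin1 : min A (1 / K₀ ^ N) ≤ 1 := by
    refine (min_le_right _ _).trans ?_
    rw [div_le_one (by positivity)]
    exact one_le_pow₀ hK1
  have hδ0 : 0 < δ := by
    rw [hδ]
    positivity
  have hδ1 : C3 * X₀ * δ = min A (1 / K₀ ^ N) := by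
    rw [hδ]
    field_simp
  have hδ2 : C3 * δ ≤ min A (1 / K₀ ^ N) := by
    rw [← hδ1]
    have : C3 * δ * 1 ≤ C3 * δ * X₀ := mul_le_mul_of_nonneg_left hX0p (by positivity)
    linarith
  obtain ⟨B, hB0, hBcl⟩ := cl_inv_sq442 hφ hφ1 k
  refine ⟨δ / (2 ^ k * B), by positivity, ?_⟩
  intro Ω hΩ hreg hsub s hs hsym hoff hcl hst2
  -- the tensor `t`
  obtain ⟨t, ht⟩ : ∃ t : MF n, t = fun x => ((φ x) ^ 2)⁻¹ • s x := ⟨_, rfl⟩
  have hφ2 : ∀ x, φ x ^ 2 ≠ 0 := fun x => ne_of_gt (pow_pos (hφ.2 x) 2)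
  have hst' : (fun x => φ x ^ 2 • t x) = s := by
    funext x
    rw [ht]
    simp only [smul_smul]
    rw [mul_inv_cancel₀ (hφ2 x), one_smul]
  have htsm : SmM t := by
    intro i j
    rw [ht]
    exact ((hφ.1.pow 2).inv hφ2).mul (hs i j)
  have htsy : ∀ x, (t x).IsSymm := fun x => by
    rw [ht]
    exact (hsym x).smul _
  have htoff : ∀ x ∉ Ω, t x = 1 := fun x hx => by
    rw [ht]
    simp only
    rw [hoff x hx]
    unfold sc
    rw [smul_smul, inv_mul_cancel₀ (hφ2 x), one_smul]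
  obtain ⟨q, hq, hqe⟩ := hBA.2.1 φ hφ t htsm
  have hBt : Bt Ω φ q₀ t q := ⟨hB, hΩ, hreg, hsub, htsm, htsy, htoff, hq, hqe, by
    rw [hst']
    exact hst2⟩
  have htcl : ∀ i j, Cl k δ (ent t i j) := by
    intro i j
    refine H442.cl_ent442 htsm i j ?_
    have he : (fun x => t x i j - (1 : Matrix (Fin n) (Fin n) ℝ) i j)
        = fun x => ((φ x) ^ 2)⁻¹ * (s x i j - sc (fun x => φ x ^ 2) x i j) := by
      funext x
      rw [ht]
      simp only [sc, Matrix.smul_apply, smul_eq_mul]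
      rw [mul_sub, ← mul_assoc, inv_mul_cancel₀ (hφ2 x), one_mul]
    rw [he]
    refine cl_le442 (cl_mul442 ((hφ.1.pow 2).inv hφ2)
      ((hs i j).sub (by
        have : ContDiff ℝ ∞ (fun x => φ x ^ 2 * (1 : Matrix (Fin n) (Fin n) ℝ) i j) :=
          (hφ.1.pow 2).mul contDiff_const
        exact this)) hBcl (hcl i j)) le_rfl (le_of_eq ?_)
    field_simp
  obtain ⟨w₀, W₀, t₀, p₀, hD₀, hpsh₀, hBt₀, hcl₀, hGf₀⟩ :=
    g3 X₀ hX03 Ω t q hBt δ hδ0.le htcl (by rw [hδ1]; exact hmin1)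
  -- iteration
  have hiter : ∀ j : ℕ, ∀ i l, Cl (n + 4) (1 / (2 ^ j * K₀) ^ N) (ent t₀ i l) := by
    intro j
    induction j with
    | zero =>
      intro i l
      refine cl_le442 (hcl₀ i l) (le_max_right _ _) ?_
      rw [pow_zero, one_mul]
      exact hδ2.trans (min_le_right _ _)
    | succ j ih =>
      have hKj : C ≤ 2 ^ j * K₀ := by
        have h1 : (1 : ℝ) ≤ 2 ^ j := one_le_pow₀ (by norm_num)
        exact hCK.trans (le_mul_of_one_le_left (by linarith) h1)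
      have hKj0 : 0 < 2 ^ j * K₀ := by linarith
      have hKj2 : K₀ ≤ (2 ^ j * K₀) ^ N := by
        have h1 : (1 : ℝ) ≤ 2 ^ j := one_le_pow₀ (by norm_num)
        have h2 : K₀ ≤ 2 ^ j * K₀ := le_mul_of_one_le_left (by linarith) h1
        exact h2.trans (le_self_pow₀ (by linarith) (by omega))
      have h3 := hst (2 ^ j * K₀) hKj Ω t₀ p₀ hBt₀ hGf₀
        (fun i l => cl_le442 (hcl₀ i l) (le_max_right _ _) (hδ2.trans (min_le_left _ _)))
        (fun i l => cl_le442 (hcl₀ i l) (le_max_left _ _) (hδ2.trans hmin1)) ih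
      intro i l
      refine cl_le442 (h3 i l) le_rfl ?_
      rw [div_le_div_iff₀ (by positivity) (by positivity)]
      have h4 : (2 ^ (j + 1) * K₀) ^ N = 2 ^ N * (2 ^ j * K₀) ^ N := by
        rw [← mul_pow]
        ring
      have h5 : (2 ^ j * K₀) ^ (2 * N) = (2 ^ j * K₀) ^ N * (2 ^ j * K₀) ^ N := by
        rw [two_mul, pow_add]
      rw [h4, h5, one_mul, ← mul_assoc]
      refine mul_le_mul_of_nonneg_right ?_ (by positivity)
      rw [← hK₀]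
      exact hKj2
  have hzero : ∀ x, t₀ x = 1 := by
    intro x
    ext i l
    have hlim : Filter.Tendsto (fun j : ℕ => 1 / ((2 : ℝ) ^ j * K₀) ^ N) Filter.atTop
        (nhds 0) := by
      have h1 : Filter.Tendsto (fun j : ℕ => (2 : ℝ) ^ j) Filter.atTop Filter.atTop :=
        tendsto_pow_atTop_atTop_of_one_lt (by norm_num)
      refine squeeze_zero (fun j => by positivity) (fun j => ?_)
        (tendsto_inv_atTop_zero.comp h1)
      have h2 : (2 : ℝ) ^ j ≤ (2 ^ j * K₀) ^ N := by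
        have h3 : (1 : ℝ) ≤ 2 ^ j := one_le_pow₀ (by norm_num)
        have h4 : (2 : ℝ) ^ j ≤ 2 ^ j * K₀ := le_mul_of_one_le_right (by linarith) hK1
        exact h4.trans (le_self_pow₀ (h3.trans h4) (by omega))
      rw [one_div]
      exact inv_anti₀ (by positivity) h2
    have h0 : ‖ent t₀ i l x‖ ≤ 0 := by
      refine ge_of_tendsto' hlim fun j => ?_
      have := hiter j i l 0 (Nat.zero_le _) x
      rwa [norm_iteratedFDeriv_zero] at this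
    have h1 : ent t₀ i l x = 0 := norm_le_zero_iff.1 h0
    unfold ent at h1
    have h2 := Complex.ofReal_eq_zero.1 h1
    linarith
  refine ⟨w₀, W₀, hD₀, fun x => ?_⟩
  have h1 := hpsh₀ x
  rw [hst'] at h1
  rw [h1, hzero]
  rfl

end Vale.Agent.P088.LR.CC
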